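import Mathlib
import Vale.Agent.P227.Prod.Defs
import Vale.Agent.P227.Prod.Main
import Vale.Agent.Results.P227.BlockDilation

open MeasureTheory
open scoped Pointwise
open Vale.Agent.P227.Prod

namespace Vale.Agent.Results.P227.A00_Combined

/-- Multiply the coordinates of `x` lying in block `c` by `a c`; the block of coordinate `i`
is `b i`. -/
noncomputable def blockScale {n : ℕ} {β : Type} (b : Fin n → β) (a : β → ℝ)
    (x : EuclideanSpace ℝ (Fin n)) : EuclideanSpace ℝ (Fin n) :=
  WithLp.toLp 2 (fun i => a (b i) * x i)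

/-- Two families of pairs of origin-symmetric convex bodies for which the logarithmic
Brunn-Minkowski inequality holds: (A) unconditional products, (B) block dilations. -/
theorem result (lam : ℝ) (h0 : 0 ≤ lam) (h1 : lam ≤ 1) :
    (∀ (m : ℕ) (d : Fin m → ℕ), (∀ c, 0 < d c) →
      ∀ K L : (c : Fin m) → Set (EuclideanSpace ℝ (Fin (d c))),
      (∀ c, IsSymmBody (K c)) → (∀ c, IsSymmBody (L c)) →
      ∀ U V : Set (Fin m → ℝ), IsUncondBody U → IsUncondBody V →
        IsSymmBody (blockBody U K) ∧ IsSymmBody (blockBody V L) ∧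
        ((∀ c, LogBM (K c) (L c) lam) → LogBM (blockBody U K) (blockBody V L) lam) ∧
        LogBM (blockBody U K) (blockBody V K) lam) ∧
    (∀ (n : ℕ) (β : Type) [Fintype β] (b : Fin n → β) (K : Set (EuclideanSpace ℝ (Fin n))),
      IsSymmBody K →
      (∀ ε : β → ℝ, (∀ c, ε c = 1 ∨ ε c = -1) → ∀ x ∈ K, blockScale b ε x ∈ K) →
      ∀ τ : β → ℝ, (∀ c, 0 < τ c) →
        IsSymmBody (blockScale b τ '' K) ∧ LogBM K (blockScale b τ '' K) lam) := by
  refine ⟨fun m d hd K L hK hL U V hU hV => main d hd K L hK hL U V hU hV lam h0 h1, ?_⟩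
  intro n β _ b K hK hinv τ hτ
  have hK' : Vale.Agent.Results.P227.BlockDilation.IsSymmBody K :=
    ⟨hK.isCompact, hK.convex, hK.nonempty_interior, hK.neg_mem⟩
  obtain ⟨hb, hineq⟩ :=
    Vale.Agent.Results.P227.BlockDilation.result b K hK' hinv τ hτ lam h0 h1
  exact ⟨⟨hb.isCompact, hb.convex, hb.nonempty_interior, hb.neg_mem⟩, hineq⟩

end Vale.Agent.Results.P227.A00_Combined
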