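import Mathlib
import Vale.Agent.P227.Prod.Defs
import Vale.Agent.P227.Prod.Main

open MeasureTheory
open scoped Pointwise
open Vale.Agent.P227.Prod

namespace Vale.Agent.Results.P227.A1_CommonBlocks

/-- The logarithmic Brunn-Minkowski inequality for two unconditional products with common blocks.
Here `ℝ^n = ℝ^(d 0) × ... × ℝ^(d (m-1))`, every `K c` is an arbitrary origin-symmetric convex body in
`ℝ^(d c)`, and `U`, `V` are unconditional convex bodies in `ℝ^m`.  No hypothesis on the blocks. -/
theorem result {m : ℕ} (d : Fin m → ℕ) (hd : ∀ c, 0 < d c)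
    (K : (c : Fin m) → Set (EuclideanSpace ℝ (Fin (d c))))
    (hK : ∀ c, IsSymmBody (K c))
    (U V : Set (Fin m → ℝ)) (hU : IsUncondBody U) (hV : IsUncondBody V)
    (lam : ℝ) (h0 : 0 ≤ lam) (h1 : lam ≤ 1) :
    IsSymmBody (blockBody U K) ∧ IsSymmBody (blockBody V K) ∧
      LogBM (blockBody U K) (blockBody V K) lam :=
  ⟨(main d hd K K hK hK U V hU hV lam h0 h1).1, (main d hd K K hK hK U V hU hV lam h0 h1).2.1,
    (main d hd K K hK hK U V hU hV lam h0 h1).2.2.2⟩

end Vale.Agent.Results.P227.A1_CommonBlocks
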